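import Vale.Agent.P254.SP.IfaceA

/-!
P254, line (SP_0), row SP-BESSEL (helper872): with `K = Σ_a A_a²` (`A_a` symmetric), `K e_p = q_p e_p`,
`e_p` orthonormal: `Σ_p |Σ_a B_a A_a e_p|² / q_p ≤ Σ_a |B_a|²_HS` for ARBITRARY square matrices `B_a`
(Bessel's inequality for the orthonormal family `(A_a e_p / √q_p)_a`).  `x / 0 = 0` covers `q_p = 0`.
-/

open MeasureTheory

namespace Vale.Agent.P254.SP.H872

open Vale.Agent.P227.M Vale.Agent.P254.S

/-- Bessel's inequality for an orthogonal family with square norms `q p` (possibly `0`). -/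
theorem bessel_raw {κ ι : Type*} [Fintype κ] [Fintype ι] [DecidableEq κ] (u : κ → ι → ℝ) (q : κ → ℝ)
    (hu : ∀ p p', ∑ i, u p i * u p' i = if p = p' then q p else 0) (b : ι → ℝ) :
    ∑ p, (∑ i, b i * u p i) ^ 2 / q p ≤ ∑ i, b i ^ 2 := by
  set c : κ → ℝ := fun p => (∑ i, b i * u p i) / q p with hc
  have h0 : 0 ≤ ∑ i, (b i - ∑ p, c p * u p i) ^ 2 := Finset.sum_nonneg fun i _ => sq_nonneg _
  have h1 : ∑ i, b i * ∑ p, c p * u p i = ∑ p, (∑ i, b i * u p i) ^ 2 / q p := by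
    simp_rw [Finset.mul_sum]
    rw [Finset.sum_comm]
    refine Finset.sum_congr rfl fun p _ => ?_
    have : ∑ i, b i * (c p * u p i) = c p * ∑ i, b i * u p i := by
      rw [Finset.mul_sum]; exact Finset.sum_congr rfl fun i _ => by ring
    rw [this, hc]; ring
  have h2 : ∑ i, (∑ p, c p * u p i) ^ 2 = ∑ p, (∑ i, b i * u p i) ^ 2 / q p := by
    have e1 : ∀ i, (∑ p, c p * u p i) ^ 2 = ∑ p, ∑ p', c p * c p' * (u p i * u p' i) := by
      intro i
      rw [sq, Finset.sum_mul_sum]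
      exact Finset.sum_congr rfl fun p _ => Finset.sum_congr rfl fun p' _ => by ring
    simp_rw [e1]
    rw [Finset.sum_comm]
    refine Finset.sum_congr rfl fun p _ => ?_
    rw [Finset.sum_comm]
    have e2 : ∀ p', ∑ i, c p * c p' * (u p i * u p' i) = c p * c p' * (if p = p' then q p else 0) := by
      intro p'
      rw [← Finset.mul_sum, hu]
    simp_rw [e2]
    rw [Finset.sum_eq_single p]
    · rw [if_pos rfl, hc]
      by_cases hq : q p = 0
      · simp [hq]
      · field_simp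
    · intro p' _ hp'
      rw [if_neg (Ne.symm hp'), mul_zero]
    · intro h; exact absurd (Finset.mem_univ p) h
  have h3 : ∑ i, (b i - ∑ p, c p * u p i) ^ 2
      = ∑ i, b i ^ 2 - 2 * ∑ i, b i * ∑ p, c p * u p i + ∑ i, (∑ p, c p * u p i) ^ 2 := by
    rw [Finset.mul_sum, ← Finset.sum_sub_distrib, ← Finset.sum_add_distrib]
    exact Finset.sum_congr rfl fun i _ => by ring
  rw [h3, h1, h2] at h0
  linarith

section Col

variable {ι m n : Type*} [Fintype ι] [Fintype m] [Fintype n] [DecidableEq n]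

/-- **SP-BESSEL**, columns as functions: `A_a` symmetric, `Σ_a A_a A_a e_p = q_p e_p`, `e_p` orthonormal. -/
theorem bessel (A : ι → Matrix n n ℝ) (hA : ∀ a, (A a).transpose = A a) (e : n → n → ℝ)
    (he : ∀ p p', ∑ i, e p i * e p' i = if p = p' then 1 else 0) (q : n → ℝ)
    (hq : ∀ p, (∑ a, A a * A a).mulVec (e p) = q p • e p) (B : ι → Matrix m n ℝ) :
    ∑ p, (∑ i, (∑ a, (B a * A a).mulVec (e p) i) ^ 2) / q p ≤ ∑ a, ∑ i, ∑ j, B a i j ^ 2 := by
  classical
  -- the orthogonal family in `ℝ^{ι × n}`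
  set u : n → ι × n → ℝ := fun p x => (A x.1).mulVec (e p) x.2 with hu
  have horth : ∀ p p', ∑ x, u p x * u p' x = if p = p' then q p else 0 := by
    intro p p'
    have h1 : ∑ x : ι × n, u p x * u p' x = ∑ a, (A a).mulVec (e p) ⬝ᵥ (A a).mulVec (e p') := by
      rw [Fintype.sum_prod_type]; rfl
    have h2 : ∀ a, (A a).mulVec (e p) ⬝ᵥ (A a).mulVec (e p') = ((A a * A a).mulVec (e p)) ⬝ᵥ e p' := by
      intro a
      rw [Matrix.dotProduct_mulVec, ← Matrix.mulVec_transpose, hA, Matrix.mulVec_mulVec]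
    have h3 : ∑ a, (A a * A a).mulVec (e p) ⬝ᵥ e p' = ((∑ a, A a * A a).mulVec (e p)) ⬝ᵥ e p' := by
      rw [Matrix.sum_mulVec, sum_dotProduct]
    rw [h1, Finset.sum_congr rfl fun a _ => h2 a, h3, hq, smul_dotProduct]
    have h4 : e p ⬝ᵥ e p' = if p = p' then 1 else 0 := he p p'
    rw [h4]; split_ifs <;> simp
  -- each row of `B`
  have hrow : ∀ i : m, ∑ p, (∑ a, (B a * A a).mulVec (e p) i) ^ 2 / q p ≤ ∑ x : ι × n, B x.1 i x.2 ^ 2 := by
    intro i
    refine le_trans (le_of_eq ?_) (bessel_raw u q horth (fun x => B x.1 i x.2))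
    refine Finset.sum_congr rfl fun p _ => ?_
    have : ∑ x : ι × n, B x.1 i x.2 * u p x = ∑ a, (B a * A a).mulVec (e p) i := by
      rw [Fintype.sum_prod_type]
      refine Finset.sum_congr rfl fun a _ => ?_
      rw [← Matrix.mulVec_mulVec]; rfl
    rw [this]
  calc ∑ p, (∑ i, (∑ a, (B a * A a).mulVec (e p) i) ^ 2) / q p
      = ∑ i, ∑ p, (∑ a, (B a * A a).mulVec (e p) i) ^ 2 / q p := by
        rw [Finset.sum_comm]; exact Finset.sum_congr rfl fun p _ => Finset.sum_div _ _ _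
    _ ≤ ∑ i, ∑ x : ι × n, B x.1 i x.2 ^ 2 := Finset.sum_le_sum fun i _ => hrow i
    _ = ∑ a, ∑ i, ∑ j, B a i j ^ 2 := by
        simp_rw [Fintype.sum_prod_type]; rw [Finset.sum_comm]

/-- weighted form: `Σ_p w_p |Σ_a B_a A_a e_p|² ≤ C Σ_a |B_a|²` whenever `w_p q_p ≤ C`, `0 ≤ w_p`, `0 ≤ C`. -/
theorem bessel_weight (A : ι → Matrix n n ℝ) (hA : ∀ a, (A a).transpose = A a) (e : n → n → ℝ)
    (he : ∀ p p', ∑ i, e p i * e p' i = if p = p' then 1 else 0) (q : n → ℝ)
    (hq : ∀ p, (∑ a, A a * A a).mulVec (e p) = q p • e p) (B : ι → Matrix m n ℝ) (w : n → ℝ) (C : ℝ)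
    (hC : 0 ≤ C) (hw : ∀ p, w p * q p ≤ C) :
    ∑ p, w p * (∑ i, (∑ a, (B a * A a).mulVec (e p) i) ^ 2) ≤ C * ∑ a, ∑ i, ∑ j, B a i j ^ 2 := by
  classical
  have hq2 : ∀ p, q p = ∑ a, (A a).mulVec (e p) ⬝ᵥ (A a).mulVec (e p) := by
    intro p
    have h2 : ∀ a, (A a).mulVec (e p) ⬝ᵥ (A a).mulVec (e p) = ((A a * A a).mulVec (e p)) ⬝ᵥ e p := by
      intro a
      rw [Matrix.dotProduct_mulVec, ← Matrix.mulVec_transpose, hA, Matrix.mulVec_mulVec]
    have h4 : e p ⬝ᵥ e p = 1 := by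
      have := he p p
      rw [if_pos rfl] at this; exact this
    rw [Finset.sum_congr rfl fun a _ => h2 a, ← sum_dotProduct, ← Matrix.sum_mulVec, hq,
      smul_dotProduct, h4]
    simp
  have hq0 : ∀ p, 0 ≤ q p := by
    intro p
    rw [hq2 p]
    exact Finset.sum_nonneg fun a _ => Finset.sum_nonneg fun i _ => mul_self_nonneg _
  refine le_trans ?_ (mul_le_mul_of_nonneg_left (bessel A hA e he q hq B) hC)
  rw [Finset.mul_sum]
  refine Finset.sum_le_sum fun p _ => ?_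
  have hS : 0 ≤ ∑ i, (∑ a, (B a * A a).mulVec (e p) i) ^ 2 := Finset.sum_nonneg fun i _ => sq_nonneg _
  by_cases h : q p = 0
  · -- all `A_a e_p = 0`
    have hz : ∀ a, (A a).mulVec (e p) = 0 := by
      intro a
      have h5 := hq2 p
      rw [h] at h5
      have h6 := (Finset.sum_eq_zero_iff_of_nonneg
        (fun a _ => Finset.sum_nonneg fun i _ => mul_self_nonneg ((A a).mulVec (e p) i))).1 h5.symm a
        (Finset.mem_univ a)
      exact dotProduct_self_eq_zero.1 h6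
    have : ∑ i, (∑ a, (B a * A a).mulVec (e p) i) ^ 2 = 0 := by
      refine Finset.sum_eq_zero fun i _ => ?_
      have : ∑ a, (B a * A a).mulVec (e p) i = 0 := by
        refine Finset.sum_eq_zero fun a _ => ?_
        rw [← Matrix.mulVec_mulVec, hz a, Matrix.mulVec_zero]; rfl
      rw [this]; ring
    rw [this]; simp
  · have hpos : 0 < q p := lt_of_le_of_ne (hq0 p) (Ne.symm h)
    have : w p ≤ C / q p := by rw [le_div_iff₀ hpos]; exact hw p
    calc w p * (∑ i, (∑ a, (B a * A a).mulVec (e p) i) ^ 2)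
        ≤ C / q p * (∑ i, (∑ a, (B a * A a).mulVec (e p) i) ^ 2) :=
          mul_le_mul_of_nonneg_right this hS
      _ = C * ((∑ i, (∑ a, (B a * A a).mulVec (e p) i) ^ 2) / q p) := by ring

/-- `q_p = Σ_a |A_a e_p|²`. -/
theorem q_eq (A : ι → Matrix n n ℝ) (hA : ∀ a, (A a).transpose = A a) (e : n → n → ℝ)
    (he : ∀ p p', ∑ i, e p i * e p' i = if p = p' then 1 else 0) (q : n → ℝ)
    (hq : ∀ p, (∑ a, A a * A a).mulVec (e p) = q p • e p) (p : n) :
    q p = ∑ a, ∑ i, (A a).mulVec (e p) i ^ 2 := by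
  have h2 : ∀ a, (A a).mulVec (e p) ⬝ᵥ (A a).mulVec (e p) = ((A a * A a).mulVec (e p)) ⬝ᵥ e p := by
    intro a
    rw [Matrix.dotProduct_mulVec, ← Matrix.mulVec_transpose, hA, Matrix.mulVec_mulVec]
  have h4 : e p ⬝ᵥ e p = 1 := by
    have := he p p
    rw [if_pos rfl] at this; exact this
  have h5 : q p = ∑ a, (A a).mulVec (e p) ⬝ᵥ (A a).mulVec (e p) := by
    rw [Finset.sum_congr rfl fun a _ => h2 a, ← sum_dotProduct, ← Matrix.sum_mulVec, hq,
      smul_dotProduct, h4]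
    simp
  rw [h5]
  exact Finset.sum_congr rfl fun a _ => Finset.sum_congr rfl fun i _ => (sq _).symm

end Col

/-- **SP-BESSEL, expectation form** for matrix fields `B_a(z)` under the standard Gaussian. -/
theorem bessel_Ex {n : ℕ} {ι : Type*} [Fintype ι] (A : ι → Matrix (Fin n) (Fin n) ℝ)
    (hA : ∀ a, (A a).transpose = A a) (e : Fin n → Fin n → ℝ)
    (he : ∀ p p', ∑ i, e p i * e p' i = if p = p' then 1 else 0) (q : Fin n → ℝ)
    (hq : ∀ p, (∑ a, A a * A a).mulVec (e p) = q p • e p)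
    (B : ι → E n → Matrix (Fin n) (Fin n) ℝ) (w : Fin n → ℝ) (C : ℝ)
    (hC : 0 ≤ C) (hw : ∀ p, w p * q p ≤ C)
    (hL : ∀ p, Integrable (fun z =>
      (∑ i, (∑ a, (B a z * A a).mulVec (e p) i) ^ 2) * Real.exp (-Q z)))
    (hR : Integrable (fun z => (∑ a, ∑ i, ∑ j, B a z i j ^ 2) * Real.exp (-Q z))) :
    ∑ p, w p * Ex Q (fun z => ∑ i, (∑ a, (B a z * A a).mulVec (e p) i) ^ 2)
      ≤ C * Ex Q (fun z => ∑ a, ∑ i, ∑ j, B a z i j ^ 2) := by
  unfold Ex
  have hZ : 0 ≤ ∫ x : E n, Real.exp (-Q x) := integral_nonneg fun x => (Real.exp_pos _).le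
  have h1 : ∑ p, w p * ((∫ z, (∑ i, (∑ a, (B a z * A a).mulVec (e p) i) ^ 2) * Real.exp (-Q z))
        / ∫ x : E n, Real.exp (-Q x))
      = (∫ z, ∑ p, w p * ((∑ i, (∑ a, (B a z * A a).mulVec (e p) i) ^ 2) * Real.exp (-Q z)))
        / ∫ x : E n, Real.exp (-Q x) := by
    rw [integral_finsetSum _ fun p _ => (hL p).const_mul _, Finset.sum_div]
    refine Finset.sum_congr rfl fun p _ => ?_
    rw [integral_const_mul, mul_div_assoc]
  rw [h1, ← mul_div_assoc, ← integral_const_mul]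
  refine div_le_div_of_nonneg_right ?_ hZ
  refine integral_mono (integrable_finsetSum _ fun p _ => (hL p).const_mul _) (hR.const_mul _) ?_
  intro z
  have h2 := bessel_weight A hA e he q hq (fun a => B a z) w C hC hw
  have h3 : ∑ p, w p * ((∑ i, (∑ a, (B a z * A a).mulVec (e p) i) ^ 2) * Real.exp (-Q z))
      = (∑ p, w p * (∑ i, (∑ a, (B a z * A a).mulVec (e p) i) ^ 2)) * Real.exp (-Q z) := by
    rw [Finset.sum_mul]; exact Finset.sum_congr rfl fun p _ => by ring
  show ∑ p, w p * ((∑ i, (∑ a, (B a z * A a).mulVec (e p) i) ^ 2) * Real.exp (-Q z))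
    ≤ C * ((∑ a, ∑ i, ∑ j, B a z i j ^ 2) * Real.exp (-Q z))
  rw [h3, ← mul_assoc]
  exact mul_le_mul_of_nonneg_right h2 (Real.exp_pos _).le

/-- existence of the frame: an orthonormal eigenbasis (as functions) of `K = Σ_a A_a²`. -/
theorem exists_eigen {n : ℕ} (K : Matrix (Fin n) (Fin n) ℝ) (hK : K.transpose = K) :
    ∃ (e : Fin n → Fin n → ℝ) (q : Fin n → ℝ),
      (∀ p p', ∑ i, e p i * e p' i = if p = p' then 1 else 0) ∧
      (∀ i j, ∑ p, e p i * e p j = if i = j then 1 else 0) ∧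
      ∀ p, K.mulVec (e p) = q p • e p := by
  have hH : K.IsHermitian := by
    rw [Matrix.IsHermitian, Matrix.conjTranspose]
    ext i j
    simpa using congrFun (congrFun hK i) j
  refine ⟨fun p i => hH.eigenvectorBasis p i, hH.eigenvalues, ?_, ?_, ?_⟩
  · intro p p'
    have h := hH.eigenvectorBasis.orthonormal
    have h2 := (orthonormal_iff_ite.1 h) p p'
    rw [← h2, PiLp.inner_apply]
    exact Finset.sum_congr rfl fun i _ => by simp [mul_comm]
  · intro i j
    have hU := (Matrix.mem_unitaryGroup_iff (A := (hH.eigenvectorUnitary : Matrix (Fin n) (Fin n) ℝ))).1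
      hH.eigenvectorUnitary.2
    have h2 := congrFun (congrFun hU i) j
    rw [Matrix.mul_apply] at h2
    have h3 : (1 : Matrix (Fin n) (Fin n) ℝ) i j = if i = j then 1 else 0 := Matrix.one_apply
    rw [← h3, ← h2]
    exact Finset.sum_congr rfl fun p _ => by
      simp [Matrix.star_apply, Matrix.IsHermitian.eigenvectorUnitary_apply]
  · intro p
    have h := hH.mulVec_eigenvectorBasis p
    simpa using h

end Vale.Agent.P254.SP.H872
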