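import Vale.Agent.P254.SP.IfaceB
import Vale.Agent.P254.SP.H872.Bessel

/-!
P254, block SP, rows `StmtBes` and `StmtHad` of `SP/IfaceB.lean` (helper872), both unconditional.
-/

open MeasureTheory

namespace Vale.Agent.P254.SP.H872

open Vale.Agent.P227.M Vale.Agent.P254.S Vale.Agent.P254.SP

/-- **row SP-BES** -/
theorem stmtBes : StmtBes := by
  intro n A B hA e q he hq
  have hA' : ∀ a, (A a).transpose = A a := fun a => hA a
  have hqe := q_eq A hA' e he q hq
  refine ⟨?_, ?_, ?_⟩
  · intro p
    rw [hqe p]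
    exact Finset.sum_nonneg fun a _ => Finset.sum_nonneg fun i _ => sq_nonneg _
  · intro p hp a
    rw [hqe p] at hp
    have h1 := (Finset.sum_eq_zero_iff_of_nonneg
      (fun a _ => Finset.sum_nonneg fun i _ => sq_nonneg ((A a).mulVec (e p) i))).1 hp a
      (Finset.mem_univ a)
    have h2 := (Finset.sum_eq_zero_iff_of_nonneg
      (fun i _ => sq_nonneg ((A a).mulVec (e p) i))).1 h1
    funext i
    have h3 := h2 i (Finset.mem_univ i)
    simpa using pow_eq_zero_iff (two_ne_zero) |>.1 h3
  · refine le_trans (le_of_eq ?_) (bessel A hA' e he q hq B)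
    refine Finset.sum_congr rfl fun p _ => ?_
    rw [div_eq_inv_mul]
    simp_rw [Matrix.mulVec_mulVec]

/-- `log det C ≤ tr C - n` for positive definite `C` -/
theorem log_det_le_trace {n : ℕ} {C : Matrix (Fin n) (Fin n) ℝ} (hC : C.PosDef) :
    Real.log C.det ≤ C.trace - n := by
  have hH := hC.isHermitian
  have h1 : C.det = ∏ i, hH.eigenvalues i := by
    simpa using hH.det_eq_prod_eigenvalues
  have h2 : C.trace = ∑ i, hH.eigenvalues i := by
    simpa using hH.trace_eq_sum_eigenvalues
  rw [h1, Real.log_prod (fun i _ => (hC.eigenvalues_pos i).ne'), h2]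
  have h3 : ∀ i, Real.log (hH.eigenvalues i) ≤ hH.eigenvalues i - 1 := fun i =>
    Real.log_le_sub_one_of_pos (hC.eigenvalues_pos i)
  calc ∑ i, Real.log (hH.eigenvalues i) ≤ ∑ i, (hH.eigenvalues i - 1) :=
        Finset.sum_le_sum fun i _ => h3 i
    _ = ∑ i, hH.eigenvalues i - n := by simp [Finset.sum_sub_distrib]

/-- **row SP-HAD** -/
theorem stmtHad : StmtHad := by
  intro n C hC e he c hc
  set W : Matrix (Fin n) (Fin n) ℝ := Matrix.of fun i p => e p i / Real.sqrt (c p) with hW
  have hsq : ∀ p, 0 < Real.sqrt (c p) := fun p => Real.sqrt_pos.2 (hc p)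
  have hWW : W.transpose * W = Matrix.diagonal fun p => (c p)⁻¹ := by
    ext p p'
    rw [Matrix.mul_apply, Matrix.diagonal_apply]
    have h1 : ∑ i, W.transpose p i * W i p'
        = (∑ i, e p i * e p' i) / (Real.sqrt (c p) * Real.sqrt (c p')) := by
      rw [Finset.sum_div]
      refine Finset.sum_congr rfl fun i _ => ?_
      simp only [hW, Matrix.transpose_apply, Matrix.of_apply]
      have := (hsq p).ne'; have := (hsq p').ne'
      field_simp
    rw [h1, he]
    by_cases h : p = p'
    · subst h
      rw [if_pos rfl, if_pos rfl, Real.mul_self_sqrt (hc p).le, one_div]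
    · rw [if_neg h, if_neg h, zero_div]
  have hdet : W.det ^ 2 = ∏ p, (c p)⁻¹ := by
    have h1 := congrArg Matrix.det hWW
    rw [Matrix.det_mul, Matrix.det_transpose, Matrix.det_diagonal] at h1
    rw [sq, h1]
  have hprod : 0 < ∏ p, (c p)⁻¹ := Finset.prod_pos fun p _ => inv_pos.2 (hc p)
  have hdet0 : W.det ≠ 0 := by
    intro h
    rw [← hdet, h] at hprod
    norm_num at hprod
  have hU : IsUnit W := (Matrix.isUnit_iff_isUnit_det W).2 (isUnit_iff_ne_zero.2 hdet0)
  have hpd : (W.transpose * C * W).PosDef := by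
    have h1 := hC.conjTranspose_mul_mul_same (B := W) (Matrix.mulVec_injective_iff_isUnit.2 hU)
    have h2 : W.conjTranspose = W.transpose := by
      ext i j; simp [Matrix.conjTranspose_apply]
    rwa [h2] at h1
  have h1 := log_det_le_trace hpd
  have h2 : (W.transpose * C * W).det = W.det ^ 2 * C.det := by
    rw [Matrix.det_mul, Matrix.det_mul, Matrix.det_transpose]; ring
  have h3 : (W.transpose * C * W).trace = ∑ p, (∑ i, ∑ j, e p i * C i j * e p j) / c p := by
    rw [Matrix.trace]
    refine Finset.sum_congr rfl fun p _ => ?_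
    rw [Matrix.diag_apply, Matrix.mul_apply]
    simp_rw [Matrix.mul_apply, Finset.sum_mul]
    rw [Finset.sum_comm, Finset.sum_div]
    refine Finset.sum_congr rfl fun i _ => ?_
    rw [Finset.sum_div]
    refine Finset.sum_congr rfl fun j _ => ?_
    simp only [hW, Matrix.transpose_apply, Matrix.of_apply]
    have h4 := Real.mul_self_sqrt (hc p).le
    have h5 := (hsq p).ne'
    have h6 := (hc p).ne'
    rw [div_mul_eq_mul_div, div_mul_div_comm, h4]
  have h4 : Real.log (W.det ^ 2 * C.det) = - ∑ p, Real.log (c p) + Real.log C.det := by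
    rw [Real.log_mul (by positivity) hC.det_pos.ne', hdet,
      Real.log_prod (fun p _ => (inv_pos.2 (hc p)).ne')]
    simp [Real.log_inv]
  rw [h2, h4, h3] at h1
  have h5 : ∑ p, (Real.log (c p) + (∑ i, ∑ j, e p i * C i j * e p j) / c p - 1)
      = ∑ p, Real.log (c p) + ∑ p, (∑ i, ∑ j, e p i * C i j * e p j) / c p - n := by
    rw [Finset.sum_sub_distrib, Finset.sum_add_distrib]; simp
  rw [h5]
  linarith

end Vale.Agent.P254.SP.H872
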